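import Mathlib

namespace Vale.Agent.P089

open Finset

lemma code_fiber {A B : Type} [AddGroup A] [AddGroup B] [Fintype A] [Fintype B] [DecidableEq B]
    (f : A →+ B) (hf : Function.Surjective f) (b : B) :
    (univ.filter (fun a => f a = b)).card * Fintype.card B = Fintype.card A := by
  have h1 := card_eq_sum_card_fiberwise (s := (univ : Finset A)) (t := (univ : Finset B))
    (f := f) (fun _ _ => mem_univ _)
  rw [← card_univ (α := A), h1, sum_congr rfl (fun b' _ =>
    AddMonoidHom.card_fiber_eq_of_mem_range f (hf b') (hf b)), sum_const, smul_eq_mul, mul_comm,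
    card_univ]

lemma code_ball (F X : Type) [Zero F] [Fintype F] [DecidableEq F] [Fintype X] [DecidableEq X]
    (m : ℕ) : (univ.filter (fun w : X → F => (univ.filter (fun x => w x ≠ 0)).card ≤ m)).card ≤
      2 ^ Fintype.card X * Fintype.card F ^ m := by
  have hsub : univ.filter (fun w : X → F => (univ.filter (fun x => w x ≠ 0)).card ≤ m) ⊆
      ((univ : Finset X).powerset.filter (fun S => S.card ≤ m)).biUnion
        (fun S => univ.filter (fun w : X → F => ∀ x, x ∉ S → w x = 0)) := by
    intro w hw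
    refine mem_biUnion.2 ⟨univ.filter (fun x => w x ≠ 0), mem_filter.2 ⟨by simp,
      (mem_filter.1 hw).2⟩, mem_filter.2 ⟨mem_univ _, fun x hx => by simpa using hx⟩⟩
  refine (card_le_card hsub).trans ((card_biUnion_le_card_mul _ _ (Fintype.card F ^ m)
    (fun S hS => ?_)).trans ?_)
  · have h1 : (univ.filter (fun w : X → F => ∀ x, x ∉ S → w x = 0)).card ≤
        (univ : Finset (S → F)).card := by
      refine card_le_card_of_injOn (fun w x => w x.1) (fun _ _ => mem_coe.2 (mem_univ _)) ?_
      intro w hw w' hw' h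
      funext x
      by_cases hx : x ∈ S
      · exact congrFun h ⟨x, hx⟩
      · rw [(mem_filter.1 (mem_coe.1 hw)).2 x hx, (mem_filter.1 (mem_coe.1 hw')).2 x hx]
    refine h1.trans ?_
    rw [card_univ, Fintype.card_fun, Fintype.card_coe]
    exact Nat.pow_le_pow_right Fintype.card_pos (mem_filter.1 hS).2
  · apply Nat.mul_le_mul_right
    refine (card_filter_le _ _).trans ?_
    simp

/-- A linear code orthogonal to a given full weight vector, with large distance and large dual
distance. -/
theorem exists_code (p : ℕ) [Fact p.Prime] (hp : 2 ^ 16 ≤ p) (X : Type) [Fintype X]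
    [DecidableEq X] (hX : 16 ≤ Fintype.card X) (π : X → ZMod p) (hπ : ∀ x, π x ≠ 0) :
    ∃ R : Submodule (ZMod p) (X → ZMod p), (∀ r ∈ R, r ⬝ᵥ π = 0) ∧
      (∀ r ∈ R, r ≠ 0 → Fintype.card X < 8 * (univ.filter (fun x => r x ≠ 0)).card) ∧
      (∀ w : X → ZMod p, (∀ r ∈ R, r ⬝ᵥ w = 0) → w ≠ 0 →
        Fintype.card X < 8 * (univ.filter (fun x => w x ≠ 0)).card) ∧
      2 * Module.finrank (ZMod p) R ≤ Fintype.card X := by
  classical
  obtain ⟨n, hn⟩ : ∃ n, n = Fintype.card X := ⟨_, rfl⟩
  rw [← hn] at hX ⊢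
  obtain ⟨k, hk⟩ : ∃ k, k = n / 2 := ⟨_, rfl⟩
  let φ : (X → ZMod p) → (X → ZMod p) →ₗ[ZMod p] ZMod p := fun w =>
    (dotProductBilin (ZMod p) (ZMod p)).flip w
  have hφ : ∀ w r, φ w r = r ⬝ᵥ w := fun w r => rfl
  let H : Submodule (ZMod p) (X → ZMod p) := LinearMap.ker (φ π)
  have hH : ∀ r, r ∈ H ↔ r ⬝ᵥ π = 0 := fun r => Iff.rfl
  have cH : Fintype.card H * p = p ^ n := by
    obtain ⟨x⟩ : Nonempty X := Fintype.card_pos_iff.1 (by omega)
    have := code_fiber (φ π).toAddMonoidHom (fun t => ⟨Pi.single x (t / π x), by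
      show Pi.single x (t / π x) ⬝ᵥ π = t
      rw [single_dotProduct, div_mul_cancel₀ _ (hπ x)]⟩) 0
    rw [ZMod.card, Fintype.card_fun, ZMod.card, ← hn] at this
    rw [← this, Fintype.card_subtype]
    congr 2
    ext r
    simp only [mem_filter, mem_univ, true_and]
    rfl
  obtain ⟨B, hB⟩ : ∃ B, B = univ.filter
    (fun w : X → ZMod p => (univ.filter (fun x => w x ≠ 0)).card ≤ n / 8) := ⟨_, rfl⟩
  have p2 : 3 ≤ p := le_trans (by norm_num) hp
  have cB : B.card ≤ p ^ (n / 16 + 1 + n / 8) := by
    have := code_ball (ZMod p) X (n / 8)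
    rw [← hB, ← hn, ZMod.card] at this
    refine this.trans ?_
    rw [pow_add _ (n / 16 + 1)]
    apply Nat.mul_le_mul_right
    calc 2 ^ n ≤ 2 ^ (16 * (n / 16 + 1)) := Nat.pow_le_pow_right (by norm_num) (by omega)
      _ = (2 ^ 16) ^ (n / 16 + 1) := pow_mul _ _ _
      _ ≤ _ := Nat.pow_le_pow_left hp _
  obtain ⟨T, hT⟩ : ∃ T, T = Fintype.card (Fin k → H) := ⟨_, rfl⟩
  have T0 : 0 < T := by rw [hT]; exact Fintype.card_pos
  let B1 : Finset (Fin k → H) := (((univ : Finset (Fin k → ZMod p)).erase 0) ×ˢ B).biUnion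
    (fun q => univ.filter (fun r => ((∑ i, q.1 i • r i : H) : X → ZMod p) = q.2))
  let B2 : Finset (Fin k → H) := (B.erase 0).biUnion
    (fun w => univ.filter (fun r => ∀ i, (r i : X → ZMod p) ⬝ᵥ w = 0))
  have c1 : B1.card * p ^ (n - 1) ≤ p ^ k * B.card * T := by
    have cH' : Fintype.card H = p ^ (n - 1) := by
      have : p ^ n = p ^ (n - 1) * p := by rw [← pow_succ]; congr 1; omega
      rw [this] at cH
      exact Nat.eq_of_mul_eq_mul_right (by omega) cH
    refine (Nat.mul_le_mul_right _ card_biUnion_le).trans ?_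
    rw [sum_mul]
    refine (sum_le_card_nsmul _ _ T (fun q hq => ?_)).trans ?_
    · obtain ⟨l, b⟩ := q
      have hl : l ≠ 0 := (mem_erase.1 (mem_product.1 hq).1).1
      obtain ⟨i, hi⟩ := Function.ne_iff.1 hl
      have hi' : l i ≠ 0 := hi
      by_cases hb : b ∈ H
      · let Φ : (Fin k → H) →+ H :=
          { toFun := fun r => ∑ i, l i • r i
            map_zero' := by simp
            map_add' := fun r s => by simp [sum_add_distrib] }
        have := code_fiber Φ (fun t => ⟨Pi.single i ((l i)⁻¹ • t), by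
          show ∑ j, l j • (Pi.single i ((l i)⁻¹ • t) : Fin k → H) j = t
          rw [sum_eq_single i (fun j _ hj => by simp [hj]) (by simp), Pi.single_eq_same, smul_smul,
            mul_inv_cancel₀ hi', one_smul]⟩) ⟨b, hb⟩
        rw [cH', ← hT] at this
        rw [← this]
        apply le_of_eq
        congr 2
        ext r
        simp only [mem_filter, mem_univ, true_and]
        exact ⟨fun h => Subtype.ext h, fun h => congrArg Subtype.val h⟩
      · rw [filter_eq_empty_iff.2 (fun r _ h => hb (by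
          have h' : ((∑ i, l i • r i : H) : X → ZMod p) = b := h
          rw [← h']; exact Subtype.property _))]
        simp
    · rw [smul_eq_mul, card_product]
      apply Nat.mul_le_mul_right
      apply Nat.mul_le_mul_right
      refine (card_erase_le).trans ?_
      simp
  have c2 : B2.card * p ^ k ≤ B.card * T := by
    refine (Nat.mul_le_mul_right _ card_biUnion_le).trans ?_
    rw [sum_mul]
    refine (sum_le_card_nsmul _ _ T (fun w hw => ?_)).trans ?_
    · obtain ⟨hw0, hw⟩ := mem_erase.1 hw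
      obtain ⟨x, hx⟩ := Function.ne_iff.1 hw0
      have hx' : w x ≠ 0 := hx
      rw [hB] at hw
      have hw2 := (mem_filter.1 hw).2
      obtain ⟨y, hy⟩ : ∃ y, w y = 0 := by
        by_contra hc
        push Not at hc
        rw [filter_true_of_mem (fun x _ => hc x), card_univ, ← hn] at hw2
        omega
      let r0 : H := ⟨Pi.single x (π y) - Pi.single y (π x), by
        rw [hH, sub_dotProduct, single_dotProduct, single_dotProduct]; ring⟩
      have hr0 : (r0 : X → ZMod p) ⬝ᵥ w = π y * w x := by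
        simp only [r0]
        rw [sub_dotProduct, single_dotProduct, single_dotProduct, hy]; ring
      let Ψ : (Fin k → H) →+ (Fin k → ZMod p) :=
        { toFun := fun r i => (r i : X → ZMod p) ⬝ᵥ w
          map_zero' := by funext i; simp
          map_add' := fun r s => by funext i; simp [add_dotProduct] }
      have := code_fiber Ψ (fun t => ⟨fun i => (t i / (π y * w x)) • r0, by
        funext i
        show (((t i / (π y * w x)) • r0 : H) : X → ZMod p) ⬝ᵥ w = t i
        rw [Submodule.coe_smul, smul_dotProduct, hr0, smul_eq_mul,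
          div_mul_cancel₀ _ (mul_ne_zero (hπ y) hx')]⟩) 0
      rw [Fintype.card_fun (α := Fin k), ZMod.card, Fintype.card_fin, ← hT] at this
      rw [← this]
      apply le_of_eq
      congr 2
      ext r
      simp only [mem_filter, mem_univ, true_and]
      exact funext_iff.symm
    · rw [smul_eq_mul]
      exact Nat.mul_le_mul_right _ card_erase_le
  have d1 : B1.card * p ≤ T := by
    have h1 : p ^ k * B.card * p ≤ p ^ (n - 1) := by
      calc _ ≤ p ^ k * p ^ (n / 16 + 1 + n / 8) * p := by gcongr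
        _ = p ^ (k + (n / 16 + 1 + n / 8) + 1) := by rw [← pow_add, ← pow_succ]
        _ ≤ _ := Nat.pow_le_pow_right (by omega) (by omega)
    refine Nat.le_of_mul_le_mul_right (c := p ^ (n - 1)) ?_ (by positivity)
    calc _ = B1.card * p ^ (n - 1) * p := by ring
      _ ≤ p ^ k * B.card * T * p := Nat.mul_le_mul_right _ c1
      _ = T * (p ^ k * B.card * p) := by ring
      _ ≤ _ := Nat.mul_le_mul_left _ h1
  have d2 : B2.card * p ≤ T := by
    have h1 : B.card * p ≤ p ^ k := by
      calc _ ≤ p ^ (n / 16 + 1 + n / 8) * p := by gcongr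
        _ = p ^ ((n / 16 + 1 + n / 8) + 1) := by rw [← pow_succ]
        _ ≤ _ := Nat.pow_le_pow_right (by omega) (by omega)
    refine Nat.le_of_mul_le_mul_right (c := p ^ k) ?_ (by positivity)
    calc _ = B2.card * p ^ k * p := by ring
      _ ≤ B.card * T * p := Nat.mul_le_mul_right _ c2
      _ = T * (B.card * p) := by ring
      _ ≤ _ := Nat.mul_le_mul_left _ h1
  obtain ⟨r, hr⟩ : ∃ r, r ∉ B1 ∪ B2 := by
    by_contra hc
    push Not at hc
    have h1 : (univ : Finset (Fin k → H)).card ≤ (B1 ∪ B2).card := card_le_card (fun r _ => hc r)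
    have h2 := card_union_le B1 B2
    rw [card_univ, ← hT] at h1
    nlinarith
  rw [notMem_union] at hr
  refine ⟨Submodule.span (ZMod p) (Set.range (fun i => (r i : X → ZMod p))), ?_, ?_, ?_, ?_⟩
  · intro v hv
    rw [← hH]
    exact (Submodule.span_le.2 (by rintro _ ⟨i, rfl⟩; exact (r i).2)) hv
  · intro v hv hv0
    obtain ⟨l, hl⟩ := (Submodule.mem_span_range_iff_exists_fun _).1 hv
    by_contra hc
    apply hr.1
    refine mem_biUnion.2 ⟨(l, v), mem_product.2 ⟨mem_erase.2 ⟨?_, mem_univ _⟩, ?_⟩,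
      mem_filter.2 ⟨mem_univ _, ?_⟩⟩
    · rintro rfl
      apply hv0
      rw [← hl]; simp
    · rw [hB]; exact mem_filter.2 ⟨mem_univ _, by simp only; omega⟩
    · simp only [Submodule.coe_sum, Submodule.coe_smul]; exact hl
  · intro w hw hw0
    by_contra hc
    apply hr.2
    refine mem_biUnion.2 ⟨w, mem_erase.2 ⟨hw0, ?_⟩, mem_filter.2 ⟨mem_univ _, fun i =>
      hw _ (Submodule.subset_span ⟨i, rfl⟩)⟩⟩
    rw [hB]; exact mem_filter.2 ⟨mem_univ _, by omega⟩
  · have := finrank_range_le_card (R := ZMod p) (fun i => (r i : X → ZMod p))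
    rw [Fintype.card_fin] at this
    unfold Set.finrank at this
    omega

end Vale.Agent.P089
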