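import Mathlib

namespace Vale.Agent.P089

open Finset Filter Topology

/-- Lacunary series are irrational. -/
theorem irr (p : ℕ) (hp : 2 ≤ p) (e : ℕ → ℕ) (he : ∀ n, e n + n ≤ e (n + 1)) :
    Summable (fun n => 1 / (p : ℝ) ^ (e n)) ∧ Irrational (∑' n, 1 / (p : ℝ) ^ (e n)) := by
  have hp2 : (2 : ℝ) ≤ p := by exact_mod_cast hp
  have hmono : Monotone e := monotone_nat_of_le_succ (fun n => by have := he n; omega)
  have hgap : ∀ N j, 1 ≤ N → e N + N + j ≤ e (j + (N + 1)) := by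
    intro N j hN
    induction j with
    | zero => simpa using he N
    | succ j ih =>
      have := he (j + (N + 1))
      rw [show j + 1 + (N + 1) = j + (N + 1) + 1 by ring]
      omega
  have hb : ∀ N j, 1 ≤ N → (p : ℝ) ^ e N * (1 / (p : ℝ) ^ e (j + (N + 1))) ≤
      (1 / 2) ^ N * (1 / 2) ^ j := by
    intro N j hN
    obtain ⟨k, hk⟩ := Nat.exists_eq_add_of_le (hgap N j hN)
    have h1 : (2 : ℝ) ^ (N + j) ≤ (p : ℝ) ^ (N + j + k) :=
      (pow_le_pow_left₀ (by norm_num) hp2 _).trans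
        (pow_le_pow_right₀ (by linarith) (Nat.le_add_right _ _))
    rw [hk, show e N + N + j + k = e N + (N + j + k) by ring, pow_add, ← pow_add, ← pow_add,
      one_div_pow, pow_add (p : ℝ) (e N)]
    have h2 : (0 : ℝ) < (p : ℝ) ^ e N := by positivity
    calc (p : ℝ) ^ e N * (1 / ((p : ℝ) ^ e N * (p : ℝ) ^ (N + j + k)))
        = 1 / (p : ℝ) ^ (N + j + k) := by field_simp
      _ ≤ _ := one_div_le_one_div_of_le (by positivity) h1
  have hs : Summable (fun n => 1 / (p : ℝ) ^ (e n)) := by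
    rw [← summable_nat_add_iff 2]
    refine Summable.of_nonneg_of_le (fun _ => by positivity) (fun j => ?_) summable_geometric_two
    have h1 := hb 1 j le_rfl
    have h2 : (1 : ℝ) ≤ (p : ℝ) ^ e 1 := one_le_pow₀ (by linarith)
    have h3 : (0 : ℝ) < 1 / (p : ℝ) ^ e (j + (1 + 1)) := by positivity
    have h4 : (0 : ℝ) < (1 / 2) ^ j := by positivity
    nlinarith
  refine ⟨hs, ?_⟩
  rintro ⟨r, hr⟩
  obtain ⟨N, hN⟩ := exists_pow_lt_of_lt_one (show (0 : ℝ) < 1 / (2 * r.den) by positivity)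
    (show (1 / 2 : ℝ) < 1 by norm_num)
  have hN' : (1 / 2 : ℝ) ^ (N + 1) < 1 / (2 * r.den) :=
    lt_of_le_of_lt (pow_le_pow_of_le_one (by norm_num) (by norm_num) (by omega)) hN
  have h1 := hs.sum_add_tsum_nat_add (N + 1 + 1)
  have hs' := (summable_nat_add_iff (N + 1 + 1)).2 hs
  have h2 : 0 < ∑' j, 1 / (p : ℝ) ^ e (j + (N + 1 + 1)) :=
    hs'.tsum_pos (fun _ => by positivity) 0 (by positivity)
  have h3 : (p : ℝ) ^ e (N + 1) * ∑' j, 1 / (p : ℝ) ^ e (j + (N + 1 + 1)) ≤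
      (1 / 2) ^ (N + 1) * 2 := by
    have := (hs'.mul_left _).tsum_le_tsum (fun j => hb (N + 1) j (by omega))
      (summable_geometric_two.mul_left _)
    rwa [tsum_mul_left, tsum_mul_left, tsum_geometric_two] at this
  have h4 : (p : ℝ) ^ e (N + 1) * ∑ j ∈ range (N + 1 + 1), 1 / (p : ℝ) ^ e j =
      ((∑ j ∈ range (N + 1 + 1), p ^ (e (N + 1) - e j) : ℕ) : ℝ) := by
    rw [mul_sum]
    push_cast
    refine sum_congr rfl (fun j hj => ?_)
    rw [pow_sub₀ _ (by positivity) (hmono (by simpa [Nat.lt_succ_iff] using hj)), one_div]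
  have hden : (0 : ℝ) < r.den := by positivity
  have h5 : (r.den : ℝ) * ((p : ℝ) ^ e (N + 1) * ∑' j, 1 / (p : ℝ) ^ e (j + (N + 1 + 1))) =
      ((p ^ e (N + 1) * r.num - r.den *
        (∑ j ∈ range (N + 1 + 1), p ^ (e (N + 1) - e j) : ℕ) : ℤ) : ℝ) := by
    have h6 : (r.num : ℝ) = r * r.den := by exact_mod_cast (Rat.mul_den_eq_num r).symm
    rw [Int.cast_sub, Int.cast_mul, Int.cast_mul, Int.cast_pow, Int.cast_natCast,
      Int.cast_natCast, Int.cast_natCast, ← h4, h6, hr, ← h1]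
    ring
  have h7 : 0 < (r.den : ℝ) * ((p : ℝ) ^ e (N + 1) * ∑' j, 1 / (p : ℝ) ^ e (j + (N + 1 + 1))) := by
    positivity
  have h8 : (r.den : ℝ) * ((p : ℝ) ^ e (N + 1) * ∑' j, 1 / (p : ℝ) ^ e (j + (N + 1 + 1))) < 1 := by
    rw [lt_div_iff₀ (by positivity)] at hN'
    nlinarith
  rw [h5] at h7 h8
  have h9 := Int.cast_pos.1 h7
  rw [← Int.cast_one, Int.cast_lt] at h8
  omega

end Vale.Agent.P089
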