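import Mathlib

namespace Vale.Agent.P089

open Finset

open Classical in
/-- A counting version of the local lemma. -/
theorem lll {E Λ ι : Type} [Fintype E] [Fintype Λ] [Fintype ι]
    (bad : ι → (E → Λ) → Prop) (sup : ι → Finset E) (r : ι → ℕ) (β : ℝ) (hβ : 1 ≤ β)
    (hne : ∀ i, (sup i).Nonempty)
    (hdep : ∀ i a a', (∀ e ∈ sup i, a e = a' e) → bad i a → bad i a')
    (hdet : ∀ i, ∀ e ∈ sup i, ∃ R ⊆ sup i, e ∈ R ∧ r i ≤ R.card ∧
      ∀ a a', bad i a → bad i a' → (∀ e', e' ∉ R → a e' = a' e') → a = a')
    (hsum : ∀ e, β + ∑ i ∈ univ.filter (fun i => e ∈ sup i), β / β ^ (r i) ≤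
      (Fintype.card Λ : ℝ)) (hΛ : Nonempty Λ) :
    ∃ a : E → Λ, ∀ i, ¬ bad i a := by
  obtain ⟨z⟩ := hΛ
  let G : Finset E → Finset (E → Λ) := fun S => univ.filter
    (fun a => (∀ e, e ∉ S → a e = z) ∧ ∀ i, sup i ⊆ S → ¬ bad i a)
  have hres : ∀ (S T : Finset E) (a : E → Λ), T ⊆ S → (∀ i, sup i ⊆ T → ¬ bad i a) →
      (fun e => if e ∈ T then a e else z) ∈ G T := by
    intro S T a _ ha
    refine mem_filter.2 ⟨mem_univ _, fun e he => if_neg he, fun i hi hb => ha i hi ?_⟩
    exact hdep i _ _ (fun e he => if_pos (hi he)) hb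
  have key : ∀ n, ∀ S : Finset E, S.card = n → ∀ e, e ∉ S →
      β * (G S).card ≤ (G (insert e S)).card := by
    intro n
    induction n using Nat.strong_induction_on with
    | _ n ih =>
    intro S hS e he
    have hch : ∀ k, ∀ T ⊆ S, T.card + k = S.card → β ^ k * (G T).card ≤ (G S).card := by
      intro k
      induction k with
      | zero =>
        intro T h1 h2
        rw [eq_of_subset_of_card_le h1 (by omega)]; simp
      | succ k ih2 =>
        intro T h1 h2
        obtain ⟨f, f1, f2⟩ := exists_mem_notMem_of_card_lt_card (show T.card < S.card by omega)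
        have a1 := ih T.card (by omega) T rfl f f2
        have a2 := ih2 (insert f T) (insert_subset f1 h1) (by rw [card_insert_of_notMem f2]; omega)
        rw [pow_succ, mul_assoc]
        exact (mul_le_mul_of_nonneg_left a1 (by positivity)).trans a2
    let B : ι → Finset (E → Λ) := fun i => univ.filter
      (fun a => (∀ e', e' ∉ insert e S → a e' = z) ∧ (∀ j, sup j ⊆ S → ¬ bad j a) ∧ bad i a)
    have h1 : Fintype.card Λ * (G S).card ≤ (G (insert e S)).card +
        ∑ i ∈ univ.filter (fun i => e ∈ sup i ∧ sup i ⊆ insert e S), (B i).card := by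
      refine le_trans ?_ (Nat.add_le_add_left card_biUnion_le _)
      refine le_trans ?_ (card_union_le _ _)
      rw [← card_univ, ← card_product]
      apply card_le_card_of_injOn (fun q => Function.update q.2 e q.1)
      · rintro ⟨l, a⟩ hq
        simp only [coe_product, Set.mem_prod, mem_coe, G, mem_filter, mem_univ, true_and] at hq
        have b1 : ∀ e', e' ∉ insert e S → Function.update a e l e' = z := by
          intro e' he'
          rw [mem_insert, not_or] at he'
          rw [Function.update_of_ne he'.1, hq.1 e' he'.2]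
        have b2 : ∀ j, sup j ⊆ S → ¬ bad j (Function.update a e l) := by
          intro j hj hb
          exact hq.2 j hj (hdep j _ _ (fun e' he' =>
            Function.update_of_ne (fun e2 : e' = e => he (e2 ▸ hj he')) _ _) hb)
        simp only [mem_coe, mem_union, G, B, mem_filter, mem_univ, true_and, mem_biUnion]
        by_cases hc : ∀ i, sup i ⊆ insert e S → ¬ bad i (Function.update a e l)
        · exact Or.inl ⟨b1, hc⟩
        · push Not at hc
          obtain ⟨i, i1, i2⟩ := hc
          refine Or.inr ⟨i, ⟨?_, i1⟩, b1, b2, i2⟩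
          by_contra hn
          exact b2 i ((subset_insert_iff_of_notMem hn).1 i1) i2
      · rintro ⟨l, a⟩ hq ⟨l', a'⟩ hq' h
        simp only [coe_product, Set.mem_prod, mem_coe, G, mem_filter, mem_univ, true_and] at hq hq'
        have b1 : l = l' := by simpa using congrFun h e
        refine Prod.ext b1 (funext (fun e' => ?_))
        by_cases h2 : e' = e
        · rw [h2]; exact (hq.1 e he).trans (hq'.1 e he).symm
        · simpa [Function.update_of_ne h2] using congrFun h e'
    have h2 : ∀ i ∈ univ.filter (fun i => e ∈ sup i ∧ sup i ⊆ insert e S),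
        ((B i).card : ℝ) ≤ β / β ^ (r i) * (G S).card := by
      intro i hi
      obtain ⟨i1, i2⟩ := (mem_filter.1 hi).2
      obtain ⟨R, r1, r2, r3, r4⟩ := hdet i e i1
      have a1 : (B i).card ≤ (G (S \ R)).card := by
        apply card_le_card_of_injOn (fun a e' => if e' ∈ S \ R then a e' else z)
        · intro a ha
          exact hres S _ a sdiff_subset
            (fun j hj => (mem_filter.1 ha).2.2.1 j (hj.trans sdiff_subset))
        · intro a ha a' ha' h
          obtain ⟨b1, -, b3⟩ := (mem_filter.1 ha).2
          obtain ⟨c1, -, c3⟩ := (mem_filter.1 ha').2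
          refine r4 a a' b3 c3 (fun e' he' => ?_)
          by_cases h3 : e' ∈ S
          · simpa [h3, he'] using congrFun h e'
          · have : e' ∉ insert e S := by
              rw [mem_insert, not_or]; exact ⟨fun e2 => he' (e2 ▸ r2), h3⟩
            rw [b1 e' this, c1 e' this]
      have a2 := hch (S ∩ R).card (S \ R) sdiff_subset (card_sdiff_add_card_inter _ _)
      have a3 : R.card ≤ (S ∩ R).card + 1 := by
        refine le_trans (card_le_card (t := insert e (S ∩ R)) ?_) (card_insert_le _ _)
        intro x hx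
        rcases mem_insert.1 (i2 (r1 hx)) with h3 | h3
        · exact mem_insert.2 (Or.inl h3)
        · exact mem_insert_of_mem (mem_inter.2 ⟨h3, hx⟩)
      have a4 : β ^ r i ≤ β ^ ((S ∩ R).card + 1) := pow_le_pow_right₀ hβ (by omega)
      have a5 : ((B i).card : ℝ) ≤ (G (S \ R)).card := by exact_mod_cast a1
      rw [div_mul_eq_mul_div, le_div_iff₀ (by positivity)]
      calc ((B i).card : ℝ) * β ^ r i ≤ (G (S \ R)).card * β ^ ((S ∩ R).card + 1) := by gcongr
        _ = β * (β ^ (S ∩ R).card * (G (S \ R)).card) := by ring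
        _ ≤ _ := mul_le_mul_of_nonneg_left a2 (by positivity)
    have h3 : (Fintype.card Λ : ℝ) * (G S).card ≤ (G (insert e S)).card +
        ∑ i ∈ univ.filter (fun i => e ∈ sup i ∧ sup i ⊆ insert e S), ((B i).card : ℝ) := by
      exact_mod_cast h1
    have h4 := sum_le_sum h2
    rw [← sum_mul] at h4
    have h5 : ∑ i ∈ univ.filter (fun i => e ∈ sup i ∧ sup i ⊆ insert e S), β / β ^ (r i) ≤
        ∑ i ∈ univ.filter (fun i => e ∈ sup i), β / β ^ (r i) :=
      sum_le_sum_of_subset_of_nonneg (monotone_filter_right _ (fun _ _ h => h.1))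
        (fun _ _ _ => by positivity)
    have h6 := mul_le_mul_of_nonneg_right ((add_le_add_right h5 β).trans (hsum e))
      (Nat.cast_nonneg (α := ℝ) (G S).card)
    linarith
  have pos : ∀ S : Finset E, 0 < (G S).card := by
    intro S
    induction S using Finset.induction_on with
    | empty =>
      refine card_pos.2 ⟨fun _ => z, mem_filter.2 ⟨mem_univ _, fun _ _ => rfl, fun i hi => ?_⟩⟩
      exact absurd (subset_empty.1 hi) (hne i).ne_empty
    | insert e S he ih =>
      have := key _ S rfl e he
      have h2 : (0 : ℝ) < (G S).card := by exact_mod_cast ih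
      have h3 : (0 : ℝ) < (G (insert e S)).card := lt_of_lt_of_le (by positivity) this
      exact_mod_cast h3
  obtain ⟨a, ha⟩ := card_pos.1 (pos univ)
  exact ⟨a, fun i => (mem_filter.1 ha).2.2 i (subset_univ _)⟩

end Vale.Agent.P089
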