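import Mathlib

namespace Vale.Agent.P089

open Finset

open Classical in
/-- The module generated by the points of the group subject to the codes on all copies. -/
theorem exists_mod {K : Type} [Field K] [Countable K] {G : Type} [Group G] [Countable G]
    (X : ℕ → Type) [∀ n, Fintype (X n)] (γ : ∀ n, X n → G)
    (hinj : ∀ n, Function.Injective (γ n)) (R : ∀ n, Submodule K (X n → K))
    (hR : ∀ n, ∀ r ∈ R n, r ≠ 0 →
      Fintype.card (X n) < 8 * (univ.filter (fun x => r x ≠ 0)).card)
    (hshell : ∀ (c0 : G × ℕ) (Fam : Finset (G × ℕ)), Fam.Nonempty → c0 ∉ Fam →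
      ∃ c ∈ Fam, 8 * (univ.filter (fun x : X c.2 =>
        (∃ y, c.1 * γ c.2 x = c0.1 * γ c0.2 y) ∨
        ∃ c' ∈ Fam, c' ≠ c ∧ ∃ y, c.1 * γ c.2 x = c'.1 * γ c'.2 y)).card ≤
          Fintype.card (X c.2)) :
    ∃ (A : Type) (_ : AddCommGroup A) (_ : Module K A) (_ : Countable A)
      (ρ : Representation K G A) (av : G → A), (∀ g v, ρ g (av v) = av (g * v)) ∧
      (∀ (a : G) (n : ℕ), ∀ r ∈ R n, ∑ x, r x • av (a * γ n x) = 0) ∧
      ∀ (a : G) (n : ℕ) (y : X n → K), (∀ r ∈ R n, r ⬝ᵥ y = 0) →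
        ∃ ω : Module.Dual K A, ∀ x, ω (av (a * γ n x)) = y x := by
  let push : ∀ c : G × ℕ, (X c.2 → K) →ₗ[K] (G →₀ K) := fun c =>
    Fintype.linearCombination K (fun x => Finsupp.single (c.1 * γ c.2 x) (1 : K))
  have hpush : ∀ c r, push c r = ∑ x, r x • Finsupp.single (c.1 * γ c.2 x) (1 : K) :=
    fun c r => rfl
  have hval : ∀ c r x, push c r (c.1 * γ c.2 x) = r x := by
    intro c r x
    rw [hpush, Finsupp.finsetSum_apply, sum_eq_single x]
    · simp
    · intro y _ hy
      rw [Finsupp.smul_apply, Finsupp.single_eq_of_ne, smul_zero]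
      exact fun e => hy (hinj _ (mul_left_cancel e)).symm
    · simp
  have hval0 : ∀ c r v, (¬ ∃ y, v = c.1 * γ c.2 y) → push c r v = 0 := by
    intro c r v hv
    rw [hpush, Finsupp.finsetSum_apply]
    apply sum_eq_zero
    intro y _
    rw [Finsupp.smul_apply, Finsupp.single_eq_of_ne, smul_zero]
    exact fun e => hv ⟨y, e⟩
  let N : Submodule K (G →₀ K) := ⨆ c : G × ℕ, (R c.2).map (push c)
  let ρ0 : Representation K G (G →₀ K) :=
    { toFun := fun g => Finsupp.lmapDomain K K (g * ·)
      map_one' := by ext; simp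
      map_mul' := fun g h => by ext; simp [mul_assoc] }
  have hρ0 : ∀ g v, ρ0 g (Finsupp.single v 1) = Finsupp.single (g * v) 1 := by
    intro g v; simp [ρ0]
  have hN : ∀ g, N ≤ N.comap (ρ0 g) := by
    intro g
    apply iSup_le
    rintro c _ ⟨r, hr, rfl⟩
    apply Submodule.mem_iSup_of_mem (g * c.1, c.2)
    refine ⟨r, hr, ?_⟩
    simp only [hpush, map_sum, map_smul, hρ0, mul_assoc]
  have hker : ∀ c0 w, push c0 w ∈ N → w ∈ R c0.2 := by
    intro c0 w hw
    obtain ⟨f, f1, f2⟩ := (Submodule.mem_iSup_iff_exists_finsupp _ _).1 hw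
    choose r r1 r2 using f1
    by_cases hF : (f.support.erase c0).Nonempty
    · exfalso
      obtain ⟨c, c1, c2⟩ := hshell c0 _ hF (notMem_erase _ _)
      have c3 := mem_erase.1 c1
      have h1 := hR c.2 (r c) (r1 c) (fun e => Finsupp.mem_support_iff.1 c3.2 (by
        rw [← r2, e, map_zero]))
      obtain ⟨x, x1, x2⟩ := exists_mem_notMem_of_card_lt_card
        (lt_of_mul_lt_mul_left (lt_of_le_of_lt c2 h1) (Nat.zero_le _))
      simp only [mem_filter, mem_univ, true_and, not_or] at x1 x2
      have h2 := congrArg (fun z : G →₀ K => z (c.1 * γ c.2 x)) f2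
      simp only [Finsupp.sum, Finsupp.finsetSum_apply] at h2
      rw [hval0 _ _ _ x2.1, sum_eq_single c, ← r2, hval] at h2
      · exact x1 h2
      · intro c' h3 h4
        rw [← r2]
        apply hval0
        by_cases h5 : c' = c0
        · rw [h5]; exact x2.1
        · exact fun h6 => x2.2 ⟨c', mem_erase.2 ⟨h5, h3⟩, h4, h6⟩
      · exact fun h => absurd c3.2 h
    · rw [not_nonempty_iff_eq_empty] at hF
      have h1 : f.sum (fun _ x => x) = f c0 := by
        apply sum_eq_single c0
        · intro c h1 h2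
          exact absurd (mem_erase.2 ⟨h2, h1⟩) (by simp [hF])
        · exact fun h => Finsupp.notMem_support_iff.1 h
      have h2 : w = r c0 := by
        funext x
        rw [← hval c0 w x, ← f2, h1, ← r2, hval]
      rw [h2]; exact r1 c0
  refine ⟨(G →₀ K) ⧸ N, inferInstance, inferInstance, N.mkQ_surjective.countable,
    ρ0.quotient N hN, fun v => N.mkQ (Finsupp.single v 1), ?_, ?_, ?_⟩
  · intro g v
    simp [← hρ0]
  · intro a n r hr
    have : N.mkQ (push (a, n) r) = 0 := (Submodule.Quotient.mk_eq_zero _).2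
      (Submodule.mem_iSup_of_mem (a, n) ⟨r, hr, rfl⟩)
    simpa only [hpush, map_sum, map_smul] using this
  · intro a n y hy
    have h1 : (dotProductBilin K K).flip y ∈
        (LinearMap.ker (N.mkQ ∘ₗ push (a, n))).dualAnnihilator := by
      rw [Submodule.mem_dualAnnihilator]
      intro w hw
      exact hy w (hker (a, n) w ((Submodule.Quotient.mk_eq_zero _).1 hw))
    rw [← LinearMap.range_dualMap_eq_dualAnnihilator_ker] at h1
    obtain ⟨ω, hω⟩ := h1
    refine ⟨ω, fun x => ?_⟩
    have h2 := LinearMap.congr_fun hω (Pi.single x 1)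
    simpa [push] using h2

end Vale.Agent.P089
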